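import Vale.Agent.Lib.P227.Susp

namespace Vale.Agent.Results.P227.ReflectionLift

open Vale.Agent.Lib.P227
open scoped Pointwise

/-- (1) Dimension lifting: if the logarithmic Brunn-Minkowski inequality holds for all pairs of
origin-symmetric convex bodies of `ℝ^m`, then it holds for all pairs of origin-symmetric convex
bodies of `ℝ^(m+j)` that are invariant under the reflections in the first `j` coordinate
hyperplanes.
(2) With `m = 0`: the inequality holds, with no hypothesis, for pairs invariant under all `n`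
coordinate reflections.
(3) Suspensions: if the pair `C₁, C₂` of `ℝ^m` satisfies the inequality, so does every pair
`K, L` of `ℝ^(m+1)` invariant under `x_0 ↦ -x_0` whose full-dimensional sections `x_0 = z` are
dilates of `C₁`, respectively of `C₂`.
(4) In particular, with no hypothesis, when all these sections are dilates of one body `C`. -/
theorem result :
    (∀ m j : ℕ,
      (∀ K L : Set (Fin m → ℝ), IsBody K → IsBody L → IsSymm K → IsSymm L → LogBM K L) →
      ∀ K L : Set (Fin (m + j) → ℝ), IsBody K → IsBody L → IsSymm K → IsSymm L →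
        (∀ i : Fin (m + j), (i : ℕ) < j → ReflInv i K ∧ ReflInv i L) → LogBM K L) ∧
    (∀ n : ℕ, ∀ K L : Set (Fin n → ℝ), IsBody K → IsBody L → IsSymm K → IsSymm L →
        (∀ i : Fin n, ReflInv i K ∧ ReflInv i L) → LogBM K L) ∧
    (∀ m : ℕ, ∀ C₁ C₂ : Set (Fin m → ℝ), IsBody C₁ → IsBody C₂ → IsSymm C₁ → IsSymm C₂ →
      LogBM C₁ C₂ →
      ∀ K L : Set (Fin (m + 1) → ℝ), IsBody K → IsBody L → IsSymm K → IsSymm L →
        ReflInv 0 K → ReflInv 0 L →
        (∀ z : ℝ, IsBody {y : Fin m → ℝ | (Fin.cons z y : Fin (m + 1) → ℝ) ∈ K} →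
          ∃ a : ℝ, 0 < a ∧ {y : Fin m → ℝ | (Fin.cons z y : Fin (m + 1) → ℝ) ∈ K} = a • C₁) →
        (∀ z : ℝ, IsBody {y : Fin m → ℝ | (Fin.cons z y : Fin (m + 1) → ℝ) ∈ L} →
          ∃ a : ℝ, 0 < a ∧ {y : Fin m → ℝ | (Fin.cons z y : Fin (m + 1) → ℝ) ∈ L} = a • C₂) →
        LogBM K L) ∧
    (∀ m : ℕ, ∀ C : Set (Fin m → ℝ), IsBody C → IsSymm C →
      ∀ K L : Set (Fin (m + 1) → ℝ), IsBody K → IsBody L → IsSymm K → IsSymm L →
        ReflInv 0 K → ReflInv 0 L →
        (∀ z : ℝ, IsBody {y : Fin m → ℝ | (Fin.cons z y : Fin (m + 1) → ℝ) ∈ K} →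
          ∃ a : ℝ, 0 < a ∧ {y : Fin m → ℝ | (Fin.cons z y : Fin (m + 1) → ℝ) ∈ K} = a • C) →
        (∀ z : ℝ, IsBody {y : Fin m → ℝ | (Fin.cons z y : Fin (m + 1) → ℝ) ∈ L} →
          ∃ a : ℝ, 0 < a ∧ {y : Fin m → ℝ | (Fin.cons z y : Fin (m + 1) → ℝ) ∈ L} = a • C) →
        LogBM K L) := by
  refine ⟨fun m j h => class_lift m j fun K L hK hL hKs hLs _ => h K L hK hL hKs hLs, ?_, ?_, ?_⟩
  · intro n K L hK hL hKs hLs hr
    exact class_unconditional n K L hK hL hKs hLs fun i _ => hr i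
  · intro m C₁ C₂ h1 h2 s1 s2 hC K L hK hL hKs hLs r1 r2 hs1 hs2
    exact suspension h1 h2 s1 s2 hC hK hL hKs hLs r1 r2 hs1 hs2
  · intro m C h1 s1 K L hK hL hKs hLs r1 r2 hs1 hs2
    exact suspension h1 h1 s1 s1 (logBM_self h1 s1) hK hL hKs hLs r1 r2 hs1 hs2

end Vale.Agent.Results.P227.ReflectionLift
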